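import Mathlib

/-!
# P030, kernel row: normal forms of the boundary pieces

Straight pieces `y = A + s B` and rational circle arcs `y = c + w (1 + i s) / (1 - i s)`: on both,
a signed sum of logarithms `e0 + ∑ e k log ‖y - p k‖` has the form
`e0 + ∑ e' k log ‖α k + s β k‖`.
-/

open Complex Finset

namespace Vale.Agent.P030.H863

/-! ## the arc -/

/-- the rational parametrisation of a circle arc -/
noncomputable def arcPt (c w : ℂ) (s : ℝ) : ℂ := c + w * ((1 + I * s) / (1 - I * s))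

theorem one_sub_ne (s : ℝ) : (1 : ℂ) - I * s ≠ 0 := by
  intro h
  have := congrArg Complex.re h
  simp at this

theorem norm_one_add (s : ℝ) : ‖(1 : ℂ) + I * s‖ = ‖(1 : ℂ) - I * s‖ := by
  have : (1 : ℂ) - I * s = (starRingEnd ℂ) (1 + I * s) := by simp [sub_eq_add_neg]
  rw [this, Complex.norm_conj]

theorem norm_arcPt_sub (c w : ℂ) (s : ℝ) : ‖arcPt c w s - c‖ = ‖w‖ := by
  have h : ‖(1 : ℂ) - I * s‖ ≠ 0 := norm_ne_zero_iff.2 (one_sub_ne s)
  simp only [arcPt, add_sub_cancel_left, norm_mul, norm_div, norm_one_add]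
  rw [div_self h, mul_one]

theorem arcPt_sub (c w p : ℂ) (s : ℝ) :
    arcPt c w s - p = ((c + w - p) + s * (I * (w - c + p))) / (1 - I * s) := by
  have h := one_sub_ne s
  unfold arcPt
  field_simp
  ring

theorem log_norm_arcPt_sub (c w p : ℂ) (s : ℝ) (h : arcPt c w s ≠ p) :
    Real.log ‖arcPt c w s - p‖ =
      Real.log ‖(c + w - p) + s * (I * (w - c + p))‖ - Real.log ‖(1 : ℂ) - I * s‖ := by
  have h1 : ‖(1 : ℂ) - I * s‖ ≠ 0 := norm_ne_zero_iff.2 (one_sub_ne s)
  have h2 : ‖(c + w - p) + s * (I * (w - c + p))‖ ≠ 0 := by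
    intro h0
    apply h
    rw [← sub_eq_zero, arcPt_sub, norm_eq_zero.1 h0, zero_div]
  rw [arcPt_sub, norm_div, Real.log_div h2 h1]

/-- every point of the closed half circle around `w` is on the arc `|s| ≤ 1` -/
theorem exists_arcPt {c w y : ℂ} (hw : w ≠ 0) (hy : ‖y - c‖ = ‖w‖)
    (hr : 0 ≤ ((y - c) * (starRingEnd ℂ) w).re) : ∃ s : ℝ, |s| ≤ 1 ∧ arcPt c w s = y := by
  have hw0 : 0 < ‖w‖ := norm_pos_iff.2 hw
  set q : ℂ := (y - c) / w with hq
  have hqn : ‖q‖ = 1 := by rw [hq, norm_div, hy, div_self hw0.ne']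
  have hqre : 0 ≤ q.re := by
    have e : (y - c) * (starRingEnd ℂ) w = q * ((Complex.normSq w : ℝ) : ℂ) := by
      rw [hq, ← Complex.mul_conj]; field_simp
    rw [e, Complex.re_mul_ofReal] at hr
    exact nonneg_of_mul_nonneg_left hr (Complex.normSq_pos.2 hw)
  have hsq : q.re ^ 2 + q.im ^ 2 = 1 := by
    have := Complex.normSq_eq_norm_sq q
    rw [Complex.normSq_apply, hqn] at this
    nlinarith
  have hpos : 0 < 1 + q.re := by linarith
  refine ⟨q.im / (1 + q.re), ?_, ?_⟩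
  · rw [abs_div, abs_of_pos hpos, div_le_one hpos]
    have h1 : |q.im| ≤ 1 := by
      rw [abs_le_one_iff_mul_self_le_one]; nlinarith
    linarith
  · have hyc : y = c + w * q := by rw [hq]; field_simp; ring
    obtain ⟨s, hs⟩ : ∃ s : ℝ, q.im / (1 + q.re) = s := ⟨_, rfl⟩
    have hs1 : s * (1 + q.re) = q.im := by rw [← hs]; field_simp
    have hs2 : q.im * s = 1 - q.re := by
      have : (q.im * s - (1 - q.re)) * (1 + q.re) = 0 := by
        have : q.im * s * (1 + q.re) = q.im * q.im := by rw [mul_assoc, hs1]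
        nlinarith
      rcases mul_eq_zero.1 this with h | h
      · linarith
      · exact absurd h hpos.ne'
    rw [hs, hyc, arcPt]
    congr 2
    rw [div_eq_iff (one_sub_ne s)]
    apply Complex.ext
    · simp
      linarith
    · simp
      linarith

/-- the half circle around `w` and the half circle around `-w` cover the circle -/
theorem exists_arcPt_two {c w y : ℂ} (hw : w ≠ 0) (hy : ‖y - c‖ = ‖w‖) :
    (∃ s : ℝ, |s| ≤ 1 ∧ arcPt c w s = y) ∨ ∃ s : ℝ, |s| ≤ 1 ∧ arcPt c (-w) s = y := by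
  rcases le_total 0 ((y - c) * (starRingEnd ℂ) w).re with h | h
  · exact Or.inl (exists_arcPt hw hy h)
  · refine Or.inr (exists_arcPt (neg_ne_zero.2 hw) (by rw [norm_neg, hy]) ?_)
    rw [map_neg, mul_neg, Complex.neg_re]
    linarith

/-- the upper half circle: `w = I r` -/
theorem exists_arcPt_upper {c y : ℂ} {r : ℝ} (hr : 0 < r) (hy : ‖y - c‖ = r)
    (him : c.im ≤ y.im) : ∃ s : ℝ, |s| ≤ 1 ∧ arcPt c (I * r) s = y := by
  have hw : (I * r : ℂ) ≠ 0 := mul_ne_zero I_ne_zero (by exact_mod_cast hr.ne')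
  refine exists_arcPt hw ?_ ?_
  · rw [hy, norm_mul, Complex.norm_I, one_mul, Complex.norm_real, Real.norm_of_nonneg hr.le]
  · have : ((y - c) * (starRingEnd ℂ) (I * r)).re = (y.im - c.im) * r := by
      simp [Complex.mul_re]
    rw [this]
    exact mul_nonneg (by linarith) hr.le

theorem exists_arcPt_lower {c y : ℂ} {r : ℝ} (hr : 0 < r) (hy : ‖y - c‖ = r)
    (him : y.im ≤ c.im) : ∃ s : ℝ, |s| ≤ 1 ∧ arcPt c (-(I * r)) s = y := by
  have hw : (-(I * r) : ℂ) ≠ 0 :=
    neg_ne_zero.2 (mul_ne_zero I_ne_zero (by exact_mod_cast hr.ne'))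
  refine exists_arcPt hw ?_ ?_
  · rw [hy, norm_neg, norm_mul, Complex.norm_I, one_mul, Complex.norm_real,
      Real.norm_of_nonneg hr.le]
  · have : ((y - c) * (starRingEnd ℂ) (-(I * r))).re = (c.im - y.im) * r := by
      simp [Complex.mul_re]; ring
    rw [this]
    exact mul_nonneg (by linarith) hr.le

/-- coordinates of an arc point around the upper half circle -/
theorem arcPt_upper_im (c : ℂ) (r s : ℝ) (hr : 0 ≤ r) (hs : |s| ≤ 1) :
    c.im ≤ (arcPt c (I * r) s).im := by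
  have h1 : (0 : ℝ) < 1 + s ^ 2 := by positivity
  obtain ⟨P, hP⟩ : ∃ P : ℝ, (1 - s ^ 2) / (1 + s ^ 2) = P := ⟨_, rfl⟩
  obtain ⟨Q, hQ⟩ : ∃ Q : ℝ, 2 * s / (1 + s ^ 2) = Q := ⟨_, rfl⟩
  have e1 : P + Q * s = 1 := by rw [← hP, ← hQ]; field_simp; ring
  have e2 : Q - P * s = s := by rw [← hP, ← hQ]; field_simp; ring
  have e : arcPt c (I * r) s = c + I * r * ((P : ℂ) + (Q : ℂ) * I) := by
    unfold arcPt
    congr 2
    rw [div_eq_iff (one_sub_ne s)]
    apply Complex.ext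
    · simp
      linarith
    · simp
      linarith
  have hs2 : s ^ 2 ≤ 1 := by rw [← sq_abs]; nlinarith [abs_nonneg s]
  have hP0 : 0 ≤ P := by rw [← hP]; exact div_nonneg (by linarith) h1.le
  have him : (arcPt c (I * r) s).im = c.im + r * P := by
    rw [e]; simp
  rw [him]
  have := mul_nonneg hr hP0
  linarith

/-! ## straight pieces -/

/-- the point `A + s B` -/
noncomputable def segPt (A B : ℂ) (s : ℝ) : ℂ := A + s * B

theorem log_norm_segPt_sub (A B p : ℂ) (s : ℝ) :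
    Real.log ‖segPt A B s - p‖ = Real.log ‖(A - p) + s * B‖ := by
  unfold segPt
  congr 2
  ring

/-- a horizontal segment -/
theorem exists_segPt {x0 x1 η : ℝ} {y : ℂ} (h : x0 < x1) (him : y.im = η) (h0 : x0 ≤ y.re)
    (h1 : y.re ≤ x1) :
    ∃ s : ℝ, 0 ≤ s ∧ s ≤ 1 ∧ segPt (x0 + η * I) ((x1 - x0 : ℝ) : ℂ) s = y := by
  have hd : 0 < x1 - x0 := by linarith
  obtain ⟨s, hs⟩ : ∃ s : ℝ, (y.re - x0) / (x1 - x0) = s := ⟨_, rfl⟩
  have hs1 : s * (x1 - x0) = y.re - x0 := by rw [← hs]; field_simp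
  refine ⟨s, by rw [← hs]; exact div_nonneg (by linarith) hd.le,
    by rw [← hs]; exact (div_le_one hd).2 (by linarith), ?_⟩
  apply Complex.ext
  · simp [segPt]
    linarith
  · simp [segPt, him]

/-! ## signed sums of logarithms -/

variable {κ : Type*}

/-- a member: `a0 + ∑ a k log ‖y - p k‖` -/
noncomputable def pot (K : Finset κ) (p : κ → ℂ) (a0 : ℝ) (a : κ → ℝ) (y : ℂ) : ℝ :=
  a0 + ∑ k ∈ K, a k * Real.log ‖y - p k‖

/-- differences with a common list of poles -/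
theorem pot_sub (K : Finset κ) (p : κ → ℂ) (a0 b0 : ℝ) (a b : κ → ℝ) (y : ℂ) :
    pot K p a0 a y - pot K p b0 b y = pot K p (a0 - b0) (fun k => a k - b k) y := by
  unfold pot
  have : ∑ k ∈ K, (a k - b k) * Real.log ‖y - p k‖ =
      ∑ k ∈ K, a k * Real.log ‖y - p k‖ - ∑ k ∈ K, b k * Real.log ‖y - p k‖ := by
    rw [← Finset.sum_sub_distrib]
    exact Finset.sum_congr rfl fun k _ => by ring
  rw [this]
  ring

/-- the mirror member has the conjugate poles -/
theorem pot_conj (K : Finset κ) (p : κ → ℂ) (a0 : ℝ) (a : κ → ℝ) (y : ℂ) :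
    pot K p a0 a ((starRingEnd ℂ) y) = pot K (fun k => (starRingEnd ℂ) (p k)) a0 a y := by
  unfold pot
  congr 1
  refine Finset.sum_congr rfl fun k _ => ?_
  have : (starRingEnd ℂ) y - p k = (starRingEnd ℂ) (y - (starRingEnd ℂ) (p k)) := by simp
  rw [this, Complex.norm_conj]

/-- on a straight piece -/
theorem pot_seg (K : Finset κ) (p : κ → ℂ) (a0 : ℝ) (a : κ → ℝ) (A B : ℂ) (s : ℝ) :
    pot K p a0 a (segPt A B s) = a0 + ∑ k ∈ K, a k * Real.log ‖(A - p k) + s * B‖ := by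
  unfold pot
  congr 1
  exact Finset.sum_congr rfl fun k _ => by rw [log_norm_segPt_sub]

/-- on an arc: one more term `1 - I s`, with the coefficient `- ∑ a` -/
theorem pot_arc (K : Finset κ) (p : κ → ℂ) (a0 : ℝ) (a : κ → ℝ) (c w : ℂ) (s : ℝ)
    (h : ∀ k ∈ K, a k ≠ 0 → arcPt c w s ≠ p k) :
    pot K p a0 a (arcPt c w s) = a0 +
      (∑ k ∈ K, a k * Real.log ‖(c + w - p k) + s * (I * (w - c + p k))‖ +
        (-∑ k ∈ K, a k) * Real.log ‖(1 : ℂ) + s * (-I)‖) := by
  unfold pot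
  have e1 : (1 : ℂ) + s * (-I) = 1 - I * s := by ring
  rw [e1, neg_mul, Finset.sum_mul, ← sub_eq_add_neg, ← Finset.sum_sub_distrib]
  congr 1
  refine Finset.sum_congr rfl fun k hk => ?_
  by_cases h0 : a k = 0
  · simp [h0]
  · rw [log_norm_arcPt_sub c w (p k) s (h k hk h0)]
    ring

end Vale.Agent.P030.H863
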